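import Vale.Agent.P037h.Transfer

open Filter Topology

namespace Vale.Agent.Results.P037.Disproof

/-- The number of ordered copies of the binary matrix `H` in the binary matrix `A`: the number of
pairs (increasing choice of rows, increasing choice of columns) on which `A` equals `H`. -/
noncomputable def numCopies {k n : ℕ} (H : Fin k → Fin k → Bool) (A : Fin n → Fin n → Bool) : ℕ :=
  Nat.card {p : (Fin k ↪o Fin n) × (Fin k ↪o Fin n) // ∀ i j, A (p.1 i) (p.2 j) = H i j}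

/-- The number of entries in which two matrices differ. -/
noncomputable def numDiff {n : ℕ} (A B : Fin n → Fin n → Bool) : ℕ :=
  Nat.card {q : Fin n × Fin n // A q.1 q.2 ≠ B q.1 q.2}

/-- The distance of `A` from `H`-freeness: the least number of entries to be changed in order to
reach an `H`-free matrix, divided by `n ^ 2`. -/
noncomputable def distFree {k n : ℕ} (H : Fin k → Fin k → Bool) (A : Fin n → Fin n → Bool) : ℝ :=
  ((sInf {m : ℕ | ∃ B : Fin n → Fin n → Bool, numCopies H B = 0 ∧ numDiff A B = m} : ℕ) : ℝ) /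
    (n : ℝ) ^ 2

/-- The polynomial removal bound for the pattern `H`. -/
def PolyRemoval {k : ℕ} (H : Fin k → Fin k → Bool) : Prop :=
  ∃ c C : ℝ, 0 < c ∧ 0 < C ∧ ∀ n : ℕ, 1 ≤ n → ∀ ε : ℝ, 0 < ε → ε < 1 →
    ∀ A : Fin n → Fin n → Bool, ε ≤ distFree H A →
      c * ε ^ C * (n : ℝ) ^ (2 * k) ≤ (numCopies H A : ℝ)

theorem dist_ge {k n m : ℕ} (hn : 1 ≤ n) (H : Fin k → Fin k → Bool) (A : Fin n → Fin n → Bool)
    (hex : ∃ B : Fin n → Fin n → Bool, numCopies H B = 0)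
    (h : ∀ B : Fin n → Fin n → Bool, numCopies H B = 0 → m ≤ 2048 * numDiff A B) :
    (m : ℝ) / 2048 / (n : ℝ) ^ 2 ≤ distFree H A := by
  unfold distFree
  have hne : {m : ℕ | ∃ B : Fin n → Fin n → Bool, numCopies H B = 0 ∧ numDiff A B = m}.Nonempty := by
    obtain ⟨B, hB⟩ := hex
    exact ⟨_, B, hB, rfl⟩
  obtain ⟨B, hB, hB2⟩ := Nat.sInf_mem hne
  have h1 := h B hB
  rw [hB2] at h1
  have h2 : (m : ℝ) ≤ 2048 * ((sInf {m : ℕ | ∃ B : Fin n → Fin n → Bool,
    numCopies H B = 0 ∧ numDiff A B = m} : ℕ) : ℝ) := by exact_mod_cast h1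
  apply div_le_div_of_nonneg_right _ (by positivity)
  linarith

theorem exists_free {n : ℕ} : ∃ B : Fin n → Fin n → Bool, numCopies P037h.HB B = 0 := by
  refine ⟨fun _ _ => true, ?_⟩
  unfold numCopies
  rw [Nat.card_eq_zero]
  left
  refine ⟨?_⟩
  rintro ⟨p, hp⟩
  have := hp 0 0
  have h2 : P037h.HB 0 0 = false := by decide
  rw [h2] at this
  exact absurd this (by simp)

theorem family (D : ℕ) (hD : 1 ≤ D) : ∃ n : ℕ, 2 ^ D ≤ n ∧ ∃ A : Fin n → Fin n → Bool,
    1 / (2048 * (10 * (D : ℝ) + 42) ^ 2) ≤ distFree P037h.HB A ∧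
    (numCopies P037h.HB A : ℝ) ≤ (n : ℝ) ^ 64 / 2 ^ D := by
  have g1 := P037h.card_S_ge D
  have g2 := P037h.card_S_le D
  have p1 : 0 < 2 ^ D := by positivity
  refine ⟨(P037h.S D).card, by nlinarith, P037h.AM D, ?_, ?_⟩
  · have hn : 1 ≤ (P037h.S D).card := by nlinarith
    have h := dist_ge (m := 2 ^ D * 2 ^ D) hn P037h.HB (P037h.AM D) exists_free (by
      intro B hB
      by_contra hcon
      push Not at hcon
      obtain ⟨p, hp⟩ := P037h.far_AM D hD B hcon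
      unfold numCopies at hB
      rw [Nat.card_eq_zero] at hB
      rcases hB with hB | hB
      · exact hB.elim ⟨p, hp⟩
      · exact hB.not_finite inferInstance)
    refine le_trans ?_ h
    have h3 : ((P037h.S D).card : ℝ) ≤ 2 ^ D * (10 * D + 42) := by exact_mod_cast g2
    have h4 : (0 : ℝ) < ((P037h.S D).card : ℝ) := by exact_mod_cast hn
    have h5 : (0 : ℝ) < 2 ^ D := by positivity
    push_cast
    rw [div_div, div_le_div_iff₀ (by positivity) (by positivity)]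
    have h6 : ((P037h.S D).card : ℝ) ^ 2 ≤ (2 ^ D * (10 * D + 42)) ^ 2 :=
      pow_le_pow_left₀ h4.le h3 2
    nlinarith
  · rw [le_div_iff₀ (by positivity)]
    exact_mod_cast P037h.card_copies D hD

theorem no_poly : ¬ PolyRemoval P037h.HB := by
  rintro ⟨c, C, hc, hC, h⟩
  obtain ⟨M, hM⟩ := exists_nat_ge C
  -- for each D the bound gives an inequality
  have key : ∀ D : ℕ, 1 ≤ D → c ≤ (2048 * 52 ^ 2) ^ M * ((D : ℝ) ^ (2 * M) / 2 ^ D) := by
    intro D hD
    obtain ⟨n, hn, A, hA, hN⟩ := family D hD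
    have hn1 : 1 ≤ n := le_trans Nat.one_le_two_pow hn
    have hD' : (1 : ℝ) ≤ D := by exact_mod_cast hD
    have hq : (1 : ℝ) < 2048 * (10 * (D : ℝ) + 42) ^ 2 := by nlinarith
    have h1 := h n hn1 (1 / (2048 * (10 * (D : ℝ) + 42) ^ 2)) (by positivity) (by
      rw [div_lt_one (by positivity)]; exact hq) A hA
    have h2 := h1.trans hN
    have hnp : (0 : ℝ) < (n : ℝ) ^ 64 := by
      have : (0 : ℝ) < n := by exact_mod_cast hn1
      positivity
    have h3 : c * (1 / (2048 * (10 * (D : ℝ) + 42) ^ 2)) ^ C ≤ 1 / 2 ^ D := by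
      have e : 2 * 32 = 64 := rfl
      rw [e] at h2
      rw [div_eq_mul_one_div ((n : ℝ) ^ 64), mul_comm ((n : ℝ) ^ 64)] at h2
      exact le_of_mul_le_mul_right h2 hnp
    rw [one_div, Real.inv_rpow (by positivity)] at h3
    have h4 : (2048 * (10 * (D : ℝ) + 42) ^ 2) ^ C ≤ (2048 * 52 ^ 2) ^ M * (D : ℝ) ^ (2 * M) := by
      calc (2048 * (10 * (D : ℝ) + 42) ^ 2) ^ C ≤ (2048 * (10 * (D : ℝ) + 42) ^ 2) ^ (M : ℝ) :=
            Real.rpow_le_rpow_of_exponent_le hq.le hM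
        _ = (2048 * (10 * (D : ℝ) + 42) ^ 2) ^ M := Real.rpow_natCast _ _
        _ ≤ (2048 * (52 * (D : ℝ)) ^ 2) ^ M := by
            apply pow_le_pow_left₀ (by positivity)
            have : 10 * (D : ℝ) + 42 ≤ 52 * D := by linarith
            have h5 : (0 : ℝ) ≤ 10 * (D : ℝ) + 42 := by positivity
            nlinarith
        _ = (2048 * 52 ^ 2) ^ M * (D : ℝ) ^ (2 * M) := by
            rw [mul_pow 52 (D : ℝ) 2, ← mul_assoc, mul_pow, ← pow_mul]
    have hpos : (0 : ℝ) < (2048 * (10 * (D : ℝ) + 42) ^ 2) ^ C := by positivity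
    rw [← div_eq_mul_inv, div_le_iff₀ hpos] at h3
    calc c ≤ 1 / 2 ^ D * (2048 * (10 * (D : ℝ) + 42) ^ 2) ^ C := h3
      _ ≤ 1 / 2 ^ D * ((2048 * 52 ^ 2) ^ M * (D : ℝ) ^ (2 * M)) := by gcongr
      _ = (2048 * 52 ^ 2) ^ M * ((D : ℝ) ^ (2 * M) / 2 ^ D) := by ring
  have lim := (tendsto_pow_const_div_const_pow_of_one_lt (2 * M) (r := 2) (by norm_num)).const_mul
    ((2048 * 52 ^ 2 : ℝ) ^ M)
  rw [mul_zero] at lim
  have ev := lim.eventually_lt_const hc
  obtain ⟨D, hD1, hD2⟩ := (ev.and (eventually_ge_atTop 1)).exists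
  have := key D hD2
  linarith

/-- The polynomial ordered matrix removal conjecture is false. -/
theorem result :
    (¬ ∀ (k : ℕ), 1 ≤ k → ∀ H : Fin k → Fin k → Bool, PolyRemoval H) ∧
    ∃ H : Fin 32 → Fin 32 → Bool, (¬ PolyRemoval H) ∧
      ∀ D : ℕ, 1 ≤ D → ∃ n : ℕ, 2 ^ D ≤ n ∧ ∃ A : Fin n → Fin n → Bool,
        1 / (2048 * (10 * (D : ℝ) + 42) ^ 2) ≤ distFree H A ∧
        (numCopies H A : ℝ) ≤ (n : ℝ) ^ (2 * 32) / 2 ^ D :=
  ⟨fun h => no_poly (h 32 (by norm_num) P037h.HB), P037h.HB, no_poly, family⟩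

end Vale.Agent.Results.P037.Disproof
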