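import Vale.Agent.P037h.Transfer
import Vale.Agent.P037h.Blow

open Filter Topology

namespace Vale.Agent.Results.P037.DisproofAllLarge

/-- The number of ordered copies of the binary matrix `H` in the binary matrix `A`: the number of
pairs (increasing choice of rows, increasing choice of columns) on which `A` equals `H`. -/
noncomputable def numCopies {k n : ℕ} (H : Fin k → Fin k → Bool) (A : Fin n → Fin n → Bool) : ℕ :=
  Nat.card {p : (Fin k ↪o Fin n) × (Fin k ↪o Fin n) // ∀ i j, A (p.1 i) (p.2 j) = H i j}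

/-- The number of entries in which two matrices differ. -/
noncomputable def numDiff {n : ℕ} (A B : Fin n → Fin n → Bool) : ℕ :=
  Nat.card {q : Fin n × Fin n // A q.1 q.2 ≠ B q.1 q.2}

/-- The distance of `A` from `H`-freeness: the least number of entries to be changed in order to
reach an `H`-free matrix, divided by `n ^ 2`. -/
noncomputable def distFree {k n : ℕ} (H : Fin k → Fin k → Bool) (A : Fin n → Fin n → Bool) : ℝ :=
  ((sInf {m : ℕ | ∃ B : Fin n → Fin n → Bool, numCopies H B = 0 ∧ numDiff A B = m} : ℕ) : ℝ) /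
    (n : ℝ) ^ 2

/-- The polynomial removal bound for the pattern `H`, as in the question. -/
def PolyRemoval {k : ℕ} (H : Fin k → Fin k → Bool) : Prop :=
  ∃ c C : ℝ, 0 < c ∧ 0 < C ∧ ∀ n : ℕ, 1 ≤ n → ∀ ε : ℝ, 0 < ε → ε < 1 →
    ∀ A : Fin n → Fin n → Bool, ε ≤ distFree H A →
      c * ε ^ C * (n : ℝ) ^ (2 * k) ≤ (numCopies H A : ℝ)

/-- A weaker form, which asks for the bound only for `n` large in terms of `ε`. -/
def WeakPolyRemoval {k : ℕ} (H : Fin k → Fin k → Bool) : Prop :=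
  ∃ c C : ℝ, 0 < c ∧ 0 < C ∧ ∀ ε : ℝ, 0 < ε → ε < 1 → ∃ n₀ : ℕ, ∀ n : ℕ, n₀ ≤ n →
    ∀ A : Fin n → Fin n → Bool, ε ≤ distFree H A →
      c * ε ^ C * (n : ℝ) ^ (2 * k) ≤ (numCopies H A : ℝ)

/-- The pattern, a binary matrix of size 32. -/
def pattern (i j : Fin 32) : Bool :=
  if i.val < 27 then
    if j.val < 27 then
      decide ((i.val = 0 ∧ j.val = 1) ∨ (i.val = 1 ∧ j.val ≠ 1) ∨ (2 ≤ i.val ∧ j.val = 1) ∨
        (2 ≤ i.val ∧ 2 ≤ j.val ∧ i.val ≠ j.val))
    else decide (29 ≤ j.val)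
  else if i.val < 29 then
    if j.val < 27 then false
    else if j.val < 29 then true
    else if i.val = 27 then decide (j.val ≠ 30) else decide (j.val = 30)
  else
    if j.val < 27 then true
    else if j.val < 29 then
      if j.val = 27 then decide (i.val ≠ 30) else decide (i.val = 30)
    else decide (¬ (i.val = 30 ∧ j.val = 30))

theorem pattern_eq : pattern = P037h.HB := by
  funext i j
  unfold pattern P037h.HB P037h.HP P037h.Pi0
  split_ifs <;> simp_all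

theorem pattern_rows : ∀ i : Fin 31, ∃ j, P037h.HB i.castSucc j ≠ P037h.HB i.succ j := by
  decide

theorem pattern_cols : ∀ j : Fin 31, ∃ i, P037h.HB i j.castSucc ≠ P037h.HB i j.succ := by
  decide

theorem dist_ge {k n m : ℕ} (H : Fin k → Fin k → Bool) (A : Fin n → Fin n → Bool)
    (hex : ∃ B : Fin n → Fin n → Bool, numCopies H B = 0)
    (h : ∀ B : Fin n → Fin n → Bool, numCopies H B = 0 → m ≤ 2048 * numDiff A B) :
    (m : ℝ) / 2048 / (n : ℝ) ^ 2 ≤ distFree H A := by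
  unfold distFree
  have hne : {m : ℕ | ∃ B : Fin n → Fin n → Bool, numCopies H B = 0 ∧ numDiff A B = m}.Nonempty := by
    obtain ⟨B, hB⟩ := hex
    exact ⟨_, B, hB, rfl⟩
  obtain ⟨B, hB, hB2⟩ := Nat.sInf_mem hne
  have h1 := h B hB
  rw [hB2] at h1
  have h2 : (m : ℝ) ≤ 2048 * ((sInf {m : ℕ | ∃ B : Fin n → Fin n → Bool,
    numCopies H B = 0 ∧ numDiff A B = m} : ℕ) : ℝ) := by exact_mod_cast h1
  apply div_le_div_of_nonneg_right _ (by positivity)
  linarith

theorem free_iff {k n : ℕ} (H : Fin k → Fin k → Bool) (B : Fin n → Fin n → Bool) :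
    numCopies H B = 0 ↔
      ¬ ∃ p : (Fin k ↪o Fin n) × (Fin k ↪o Fin n), ∀ i j, B (p.1 i) (p.2 j) = H i j := by
  unfold numCopies
  rw [Nat.card_eq_zero]
  constructor
  · rintro (h | h)
    · rintro ⟨p, hp⟩
      exact h.elim ⟨p, hp⟩
    · exact (h.not_finite inferInstance).elim
  · intro h
    left
    exact ⟨fun p => h ⟨p.1, p.2⟩⟩

theorem exists_free {n : ℕ} : ∃ B : Fin n → Fin n → Bool, numCopies P037h.HB B = 0 := by
  refine ⟨fun _ _ => true, ?_⟩
  rw [free_iff]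
  rintro ⟨p, hp⟩
  have := hp 0 0
  have h2 : P037h.HB 0 0 = false := by decide
  rw [h2] at this
  exact absurd this (by simp)

theorem family (D : ℕ) (hD : 1 ≤ D) : ∃ n₀ : ℕ, ∀ N : ℕ, n₀ ≤ N → ∃ A : Fin N → Fin N → Bool,
    1 / (8192 * (10 * (D : ℝ) + 42) ^ 2) ≤ distFree P037h.HB A ∧
    (numCopies P037h.HB A : ℝ) ≤ 4 / 2 ^ D * (N : ℝ) ^ 64 := by
  have g1 := P037h.card_S_ge D
  have g2 := P037h.card_S_le D
  have p1 : 0 < 2 ^ D := by positivity
  have hn : 1 ≤ (P037h.S D).card := by nlinarith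
  obtain ⟨n, hnn⟩ : ∃ n, n = (P037h.S D).card := ⟨_, rfl⟩
  refine ⟨64 * n * n, fun N hN => ?_⟩
  have hn' : 1 ≤ n := hnn ▸ hn
  obtain ⟨m, hm⟩ : ∃ m, m = N / n := ⟨_, rfl⟩
  have hm64 : 64 * n ≤ m := by
    rw [hm, Nat.le_div_iff_mul_le (by omega)]
    exact hN
  have hm0 : 1 ≤ m := by omega
  have hmn : m * n ≤ N := by rw [hm]; exact Nat.div_mul_le_self N n
  have hN2 : N ≤ 2 * (m * n) := by
    have := Nat.lt_mul_div_succ N (b := n) (by omega)
    rw [← hm] at this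
    nlinarith
  subst hnn
  refine ⟨P037h.blow N m hn (P037h.AM D), ?_, ?_⟩
  · have hd := P037h.blow_dist (d := (2 ^ D * 2 ^ D + 2047) / 2048) hn hm hm0 P037h.HB
      (P037h.AM D) (by
        intro B hB
        by_contra hcon
        push Not at hcon
        exact hB (P037h.far_AM D hD B (by omega)))
    have h := dist_ge (m := m * m * (2 ^ D * 2 ^ D)) P037h.HB
      (P037h.blow N m hn (P037h.AM D)) exists_free (by
        intro B hB
        have h1 := hd B ((free_iff _ _).1 hB)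
        have h2 : 2 ^ D * 2 ^ D ≤ 2048 * ((2 ^ D * 2 ^ D + 2047) / 2048) := by omega
        calc m * m * (2 ^ D * 2 ^ D) ≤ m * m * (2048 * ((2 ^ D * 2 ^ D + 2047) / 2048)) :=
              Nat.mul_le_mul_left _ h2
          _ = 2048 * (m * m * ((2 ^ D * 2 ^ D + 2047) / 2048)) := by ring
          _ ≤ _ := Nat.mul_le_mul_left _ h1)
    refine le_trans ?_ h
    have h3 : ((P037h.S D).card : ℝ) ≤ 2 ^ D * (10 * D + 42) := by exact_mod_cast g2
    have h4 : (0 : ℝ) < ((P037h.S D).card : ℝ) := by exact_mod_cast hn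
    have h5 : (0 : ℝ) < 2 ^ D := by positivity
    have h6 : (0 : ℝ) < m := by exact_mod_cast hm0
    have h7 : (N : ℝ) ≤ 2 * (m * (2 ^ D * (10 * D + 42))) := by
      have : (N : ℝ) ≤ 2 * (m * (P037h.S D).card) := by exact_mod_cast hN2
      nlinarith
    have h8 : (0 : ℝ) < N := by
      have : 0 < N := lt_of_lt_of_le (by positivity) hmn
      exact_mod_cast this
    push_cast
    rw [div_div, div_le_div_iff₀ (by positivity) (by positivity)]
    have h9 : (N : ℝ) ^ 2 ≤ (2 * (m * (2 ^ D * (10 * D + 42)))) ^ 2 :=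
      pow_le_pow_left₀ h8.le h7 2
    calc 1 * (2048 * (N : ℝ) ^ 2) ≤ 1 * (2048 * (2 * (m * (2 ^ D * (10 * D + 42)))) ^ 2) := by
          gcongr
      _ = _ := by ring
  · have h1 := P037h.blow_copies (k := 31) hn hm hm0 P037h.HB pattern_rows pattern_cols
      (P037h.AM D)
    have h2 := P037h.card_copies D hD
    have h3 : (m + (P037h.S D).card) ^ 64 ≤ 4 * m ^ 64 := by
      have a1 : (64 * (m + (P037h.S D).card)) ^ 64 ≤ (65 * m) ^ 64 :=
        Nat.pow_le_pow_left (by omega) 64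
      rw [mul_pow, mul_pow] at a1
      have a2 : 65 ^ 64 ≤ 4 * 64 ^ 64 := by norm_num
      have a3 : 64 ^ 64 * (m + (P037h.S D).card) ^ 64 ≤ 64 ^ 64 * (4 * m ^ 64) := by
        calc _ ≤ 65 ^ 64 * m ^ 64 := a1
          _ ≤ 4 * 64 ^ 64 * m ^ 64 := Nat.mul_le_mul_right _ a2
          _ = _ := by ring
      exact Nat.le_of_mul_le_mul_left a3 (by positivity)
    have h4 : numCopies P037h.HB (P037h.blow N m hn (P037h.AM D)) * 2 ^ D ≤ 4 * N ^ 64 := by
      unfold numCopies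
      calc _ ≤ (Nat.card {p : (Fin 32 ↪o Fin (P037h.S D).card) × (Fin 32 ↪o Fin (P037h.S D).card) //
            ∀ i j, P037h.AM D (p.1 i) (p.2 j) = P037h.HB i j} *
              ((m + (P037h.S D).card) ^ 32 * (m + (P037h.S D).card) ^ 32)) * 2 ^ D :=
            Nat.mul_le_mul_right _ h1
        _ = (Nat.card {p : (Fin 32 ↪o Fin (P037h.S D).card) × (Fin 32 ↪o Fin (P037h.S D).card) //
            ∀ i j, P037h.AM D (p.1 i) (p.2 j) = P037h.HB i j} * 2 ^ D) *
              (m + (P037h.S D).card) ^ 64 := by ring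
        _ ≤ (P037h.S D).card ^ 64 * (4 * m ^ 64) := Nat.mul_le_mul h2 h3
        _ = 4 * (m * (P037h.S D).card) ^ 64 := by ring
        _ ≤ 4 * N ^ 64 := Nat.mul_le_mul_left _ (Nat.pow_le_pow_left hmn 64)
    rw [div_mul_eq_mul_div, le_div_iff₀ (by positivity)]
    exact_mod_cast h4

theorem quantitative (ε : ℝ) (h0 : 0 < ε) (h1 : ε < 1 / 10 ^ 9) :
    ∃ n₀ : ℕ, ∀ n : ℕ, n₀ ≤ n → ∃ A : Fin n → Fin n → Bool, ε ≤ distFree P037h.HB A ∧
      (numCopies P037h.HB A : ℝ) ≤ Real.exp (-(1 / (20000 * √ε))) * (n : ℝ) ^ 64 := by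
  obtain ⟨x, hx⟩ : ∃ x, x = 1 / √ε := ⟨_, rfl⟩
  have hs : 0 < √ε := Real.sqrt_pos.2 h0
  have hxpos : 0 < x := by rw [hx]; positivity
  have hxx : x * x * ε = 1 := by
    have : √ε * √ε = ε := Real.mul_self_sqrt h0.le
    rw [hx]
    field_simp
    nlinarith
  have hx9 : 31000 < x := by
    by_contra hcon
    push Not at hcon
    have : x * x ≤ 31000 * 31000 := by nlinarith
    nlinarith
  have hexp : -(1 / (20000 * √ε)) = -(x / 20000) := by
    rw [hx]
    field_simp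
  rw [hexp]
  obtain ⟨D, hD⟩ : ∃ D, D = ⌊x / 5000⌋₊ := ⟨_, rfl⟩
  have hD1 : (D : ℝ) ≤ x / 5000 := by rw [hD]; exact Nat.floor_le (by positivity)
  have hD2 : x / 5000 < D + 1 := by rw [hD]; exact Nat.lt_floor_add_one _
  have hD3 : 1 ≤ D := by
    have : (1 : ℝ) < D := by linarith
    exact_mod_cast this.le
  obtain ⟨n₀, hn₀⟩ := family D hD3
  refine ⟨n₀, fun n hn => ?_⟩
  obtain ⟨A, hA1, hA2⟩ := hn₀ n hn
  refine ⟨A, le_trans ?_ hA1, hA2.trans ?_⟩
  · rw [le_div_iff₀ (by positivity)]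
    have hD4 : (1 : ℝ) ≤ D := by exact_mod_cast hD3
    have hq : 10 * (D : ℝ) + 42 ≤ 52 * (x / 5000) := by linarith
    have hq2 : (10 * (D : ℝ) + 42) ^ 2 ≤ (52 * (x / 5000)) ^ 2 :=
      pow_le_pow_left₀ (by positivity) hq 2
    calc ε * (8192 * (10 * (D : ℝ) + 42) ^ 2) ≤ ε * (8192 * (52 * (x / 5000)) ^ 2) := by gcongr
      _ = (8192 * 52 ^ 2 / 5000 ^ 2) * (x * x * ε) := by ring
      _ = 8192 * 52 ^ 2 / 5000 ^ 2 := by rw [hxx, mul_one]
      _ ≤ 1 := by norm_num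
  · apply mul_le_mul_of_nonneg_right _ (by positivity)
    have l2 := Real.log_two_gt_d9
    have e1 : (4 : ℝ) / 2 ^ D = Real.exp ((2 - D) * Real.log 2) := by
      rw [sub_mul, Real.exp_sub]
      congr 1
      · rw [← Real.log_rpow (by norm_num), Real.exp_log (by norm_num)]
        norm_num
      · rw [← Real.log_rpow (by norm_num), Real.exp_log (by positivity), Real.rpow_natCast]
    rw [e1]
    apply Real.exp_le_exp.2
    nlinarith

theorem not_weak : ¬ WeakPolyRemoval P037h.HB := by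
  rintro ⟨c, C, hc, hC, h⟩
  have lim := tendsto_rpow_mul_exp_neg_mul_atTop_nhds_zero (2 * C) (1 / 20000) (by norm_num)
  have ev := lim.eventually_lt_const hc
  obtain ⟨x, hx1, hx2⟩ := (ev.and (eventually_gt_atTop (40000 : ℝ))).exists
  have xpos : 0 < x := by linarith
  have hsq : √((x ^ 2)⁻¹) = x⁻¹ := by
    rw [Real.sqrt_inv, Real.sqrt_sq xpos.le]
  have he0 : 0 < (x ^ 2)⁻¹ := by positivity
  have he1 : (x ^ 2)⁻¹ < 1 / 10 ^ 9 := by
    rw [one_div]
    apply inv_strictAnti₀ (by positivity)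
    nlinarith
  obtain ⟨n₁, hn₁⟩ := h ((x ^ 2)⁻¹) he0 (he1.trans (by norm_num))
  obtain ⟨n₂, hn₂⟩ := quantitative ((x ^ 2)⁻¹) he0 he1
  obtain ⟨A, hA1, hA2⟩ := hn₂ (max (max n₁ n₂) 1) (by omega)
  have h2 := (hn₁ (max (max n₁ n₂) 1) (by omega) A hA1).trans hA2
  have hnp : (0 : ℝ) < ((max (max n₁ n₂) 1 : ℕ) : ℝ) ^ 64 := by
    have : (0 : ℝ) < ((max (max n₁ n₂) 1 : ℕ) : ℝ) := by
      have : 0 < max (max n₁ n₂) 1 := by omega
      exact_mod_cast this
    positivity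
  have h3 := le_of_mul_le_mul_right h2 hnp
  rw [hsq] at h3
  have e1 : -(1 / (20000 * x⁻¹)) = -(1 / 20000) * x := by
    field_simp
  rw [e1, Real.inv_rpow (by positivity), ← Real.rpow_natCast, ← Real.rpow_mul xpos.le] at h3
  have hpos : (0 : ℝ) < x ^ (((2 : ℕ) : ℝ) * C) := by positivity
  rw [← div_eq_mul_inv, div_le_iff₀ hpos] at h3
  push_cast at h3
  rw [mul_comm] at h3
  linarith

/-- The polynomial ordered matrix removal conjecture is false. -/
theorem result :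
    (¬ ∀ (k : ℕ), 1 ≤ k → ∀ H : Fin k → Fin k → Bool, PolyRemoval H) ∧
    (¬ PolyRemoval pattern) ∧ (¬ WeakPolyRemoval pattern) ∧
    ∀ ε : ℝ, 0 < ε → ε < 1 / 10 ^ 9 →
      ∃ n₀ : ℕ, ∀ n : ℕ, n₀ ≤ n → ∃ A : Fin n → Fin n → Bool,
        ε ≤ distFree pattern A ∧
        (numCopies pattern A : ℝ) ≤ Real.exp (-(1 / (20000 * √ε))) * (n : ℝ) ^ (2 * 32) := by
  have hp : ¬ PolyRemoval P037h.HB := by
    rintro ⟨c, C, hc, hC, h⟩
    exact not_weak ⟨c, C, hc, hC, fun ε h0 h1 => ⟨1, fun n hn A hA => h n hn ε h0 h1 A hA⟩⟩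
  rw [pattern_eq]
  exact ⟨fun h => hp (h 32 (by norm_num) P037h.HB), hp, not_weak, quantitative⟩

end Vale.Agent.Results.P037.DisproofAllLarge
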